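import Vale.Agent.P146.H605.Defs
import Vale.Agent.P146.H605.Defs2
import Vale.Agent.P146.R2.H749.LevDefs
import Vale.Agent.P146.R2.H597.TailDef
import Vale.Agent.P146.R2.H597.TailCor
import Vale.Agent.P146.R2.H597.Lev
import Vale.Agent.P146.R2.H952.Sharp
import Vale.Agent.Results.P146.SharpRate

/-!
# P146: disorder chaos of the optimal order in the Sherrington-Kirkpatrick model at every `β > 1`
-/

open MeasureTheory ProbabilityTheory Filter Topology

namespace Vale.Agent.Results.P146.OptimalChaos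

open Vale.Agent.P146 Vale.Agent.P146.H605 Vale.Agent.P146.R2

theorem result : ∃ c : ℝ, 0 < c ∧ ∀ β : ℝ, 1 < β → ∀ᶠ n : ℕ in atTop,
    -- lower bounds, and large overlaps, at every correlation
    (∀ t : ℝ, 0 ≤ t → t ≤ 1 →
      1 + (1 - 14 * (n : ℝ) ^ (-(1 / 5) : ℝ)) * t ≤ n * crossOverlap n β t ∧
      β ^ 2 / 4 * (1 - 14 * (n : ℝ) ^ (-(1 / 5) : ℝ)) * t ^ 2 ≤ crossCov n β t ∧
      ∀ δ : ℝ, (n : ℝ) ^ (-(1 / 20) : ℝ) ≤ (1 - t) * δ →
        overlapTail n β δ t ≤ Real.exp (-(n : ℝ) ^ (4 / 5 : ℝ))) ∧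
    -- two disorders of correlation `t`
    (∀ t : ℝ, 0 ≤ t → (n : ℝ) ^ (-c) ≤ 1 - t →
      -- the mean square overlap is of order `1 / n`
      n * crossOverlap n β t ≤ (1 + (n : ℝ) ^ (-c)) * ((1 + t) / (1 - t) ^ 3) ∧
      -- the covariance of the free energies is of order one
      crossCov n β t ≤ β ^ 2 / 2 * ((1 + (n : ℝ) ^ (-c)) * t / (1 - t) ^ 2 - t) ∧
      -- and negligible with respect to the variance
      crossCov n β t ≤ (n : ℝ) ^ (-c) * Var[freeEnergy n β; disorder n] ∧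
      -- the two normalised free energies are asymptotically independent
      ∀ f h : ℝ → ℝ, LipschitzWith 1 f → LipschitzWith 1 h →
        |(∫ z, ∫ g, ∫ g', f (freeEnergy n β (mixed n t z g) /
              Real.sqrt (Var[freeEnergy n β; disorder n])) *
            h (freeEnergy n β (mixed n t z g') / Real.sqrt (Var[freeEnergy n β; disorder n]))
              ∂(disorder n) ∂(disorder n) ∂(disorder n)) -
          (∫ g, f (freeEnergy n β g / Real.sqrt (Var[freeEnergy n β; disorder n]))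
              ∂(disorder n)) *
            ∫ g, h (freeEnergy n β g / Real.sqrt (Var[freeEnergy n β; disorder n]))
              ∂(disorder n)| ≤ (n : ℝ) ^ (-c)) ∧
    -- the low Hermite levels
    (∀ m : ℕ, (m : ℝ) ≤ (n : ℝ) ^ c →
      levelVar n β m ≤ 16 * β ^ 2 * m ^ 2 ∧
      levelVar n β m ≤ (n : ℝ) ^ (-c) * Var[freeEnergy n β; disorder n]) := by
  obtain ⟨c₀, Λ, hc₀, -, h⟩ := SharpRate.result
  refine ⟨min (1 / 8000) (c₀ / 6), by positivity, fun β hβ => ?_⟩
  have hV : ∀ᶠ n : ℕ in atTop, (n : ℝ) ^ c₀ ≤ Var[freeEnergy n β; disorder n] := by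
    obtain ⟨-, p, C, a, b, -, -, -, -, -, hev⟩ := h β hβ
    exact hev.mono fun n hn => hn.2
  obtain ⟨c, hc⟩ : ∃ c, c = min (1 / 8000) (c₀ / 6) := ⟨_, rfl⟩
  rw [← hc]
  have hc0 : 0 < c := by rw [hc]; positivity
  have hc1 : c ≤ 1 / 8000 := by rw [hc]; exact min_le_left _ _
  have hc2 : c ≤ c₀ / 6 := by rw [hc]; exact min_le_right _ _
  filter_upwards [chaos_pow hβ hc0 hc1, chaos_indep hβ hc0 hc1 (by linarith) hV,
    chaos_levels hβ hc0 hc1 (by linarith) hV, tail_ev hβ, eventually_ge_atTop 1]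
    with n h1 h2 h3 h4 hn
  exact ⟨fun t ht ht1 => ⟨H952.overlap_sharp n β hn hβ.le ht ht1,
    H952.crossCov_sharp n β hn hβ.le ht ht1, fun δ hδ => h4 t δ ht ht1 hδ⟩,
    fun t ht hτ => ⟨(h1 t ht hτ).1, (h1 t ht hτ).2, (h2 t ht hτ).1, (h2 t ht hτ).2⟩, h3⟩

end Vale.Agent.Results.P146.OptimalChaos
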