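import Vale.Agent.P146.Defs
import Vale.Agent.P146.H605.Defs
import Vale.Agent.P146.H605.Defs2
import Vale.Agent.P146.R2.H453.Lo3
import Vale.Agent.P146.R2.H453.Lo5
import Vale.Agent.P146.R2.H533.Up2
import Vale.Agent.P146.R2.H533.VarPos
import Vale.Agent.P146.R2.H952.Lim
import Vale.Agent.P146.R2.H952.LowT
import Vale.Agent.P146.R2.H107.Up3F
import Vale.Agent.P146.R2.H144.LowS
import Vale.Agent.P146.R2.H453.LowPhys

/-!
# P146: the lower tail of the Sherrington-Kirkpatrick free energy has speed `n²` at every `β > 1`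

Let `K(t)` be the covariance of the free energies of two disorders of correlation `t`.
* For all `β > 0`, `n ≥ 2`, all `t ∈ [0, 1]` and `x ≥ 0`,
  `log E exp (-x (F_n - E F_n)) ≤ x (1 - t) β² n / 4 + x² K(t) / 2`; a second form bounds the
  Laplace transform at an inverse temperature `b ≤ β` through `K((b / β)²)` at `β`.
  At `t = 1` this is the Gaussian bound with the true variance:
  `P(F_n ≤ E F_n - u √Var) ≤ exp (-u² / 2)`.
* For `β > 1` let `p = lim E F_n / n` and `L = p - log 2 > 0`; always `F_n ≥ n log 2`.  Then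
  `log P(F_n ≤ n (p - s))` is of order `n²` for every `s ∈ (0, L)`, with explicit bounds; for
  small `s` the rate lies between `c s³` and `C s ^ (12/5)`.
-/

open MeasureTheory ProbabilityTheory Filter Topology

namespace Vale.Agent.Results.P146.LowerTail

open Vale.Agent.P146 Vale.Agent.P146.H605 Vale.Agent.P146.R2

theorem result :
    -- every temperature, every size
    (∀ (β : ℝ) (n : ℕ), 0 < β → 2 ≤ n →
      -- the Laplace transform on the negative side, through the covariance of two disorders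
      (∀ t : ℝ, 0 ≤ t → t ≤ 1 → ∀ x : ℝ, 0 ≤ x →
        ∫ g, Real.exp (-(x * (freeEnergy n β g - ∫ h, freeEnergy n β h ∂(disorder n))))
            ∂(disorder n) ≤
          Real.exp (x * ((1 - t) * (β ^ 2 * n / 4)) + x ^ 2 / 2 * crossCov n β t)) ∧
      (∀ b : ℝ, 0 < b → b ≤ β → ∀ x : ℝ, 0 ≤ x →
        ∫ g, Real.exp (-(x * (freeEnergy n b g - ∫ h, freeEnergy n b h ∂(disorder n))))
            ∂(disorder n) ≤
          Real.exp (x * ((β ^ 2 - b ^ 2) * n / 4 - (∫ h, freeEnergy n β h ∂(disorder n) -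
            ∫ h, freeEnergy n b h ∂(disorder n))) + x ^ 2 / 2 * crossCov n β ((b / β) ^ 2))) ∧
      -- the Gaussian lower tail
      ∀ u : ℝ, 0 ≤ u → (disorder n).real {g | freeEnergy n β g ≤
        ∫ h, freeEnergy n β h ∂(disorder n) - u * Real.sqrt (Var[freeEnergy n β; disorder n])} ≤
          Real.exp (-(u ^ 2 / 2))) ∧
    -- low temperature: the lower tail has speed `n²`
    ∃ a : ℝ → ℝ, Tendsto a (𝓝[>] 1) (𝓝 2) ∧ ∀ β : ℝ, 1 < β → 0 < a β ∧
    ∃ p c k : ℝ, 0 < c ∧ 0 < k ∧ Real.log 2 < p ∧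
      Tendsto (fun n : ℕ => (∫ g, freeEnergy n β g ∂(disorder n)) / n) atTop (𝓝 p) ∧
      (∀ (n : ℕ) (g : Pair n → ℝ), n * Real.log 2 ≤ freeEnergy n β g) ∧
      -- upper bounds
      (∀ᶠ n : ℕ in atTop, ∀ s : ℝ, (n : ℝ) ^ (-c) ≤ s → s ≤ p - Real.log 2 →
        (disorder n).real {g | freeEnergy n β g ≤ n * (p - s)} ≤
          Real.exp (-(k * s ^ 4 * n ^ 2))) ∧
      (∀ s : ℝ, 0 < s → s ≤ p - Real.log 2 → ∀ᶠ n : ℕ in atTop,
        (disorder n).real {g | freeEnergy n β g ≤ n * (p - s)} ≤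
          Real.exp (-(k * s ^ 3 * n ^ 2))) ∧
      (∀ ε : ℝ, 0 < ε → ∃ δ : ℝ, 0 < δ ∧ ∀ s : ℝ, 0 < s → s ≤ δ → ∀ᶠ n : ℕ in atTop,
        (disorder n).real {g | freeEnergy n β g ≤ n * (p - s)} ≤
          Real.exp (-((32 * a β / (27 * Real.pi * β ^ 3) - ε) * s ^ 3 * n ^ 2))) ∧
      -- lower bounds: the rate `s ^ (12/5)`
      (∃ C δ : ℝ, 0 < C ∧ 0 < δ ∧ ∀ s : ℝ, 0 < s → s ≤ δ → ∀ᶠ n : ℕ in atTop,
        Real.exp (-(C * s ^ (12 / 5 : ℝ) * (n : ℝ) ^ 2)) ≤
          (disorder n).real {g | freeEnergy n β g ≤ n * (p - s)}) ∧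
      (∀ ε : ℝ, 0 < ε → ∀ᶠ n : ℕ in atTop, ∀ s : ℝ, (n : ℝ) ^ (-(1 / 4) : ℝ) ≤ s →
        s ≤ (1 - ε) * (p - Real.log 2) →
          Real.exp (-((1 + ε) / 2 * (-Real.log (1 - s / (p - Real.log 2)) -
            (1 - (1 - s / (p - Real.log 2)) ^ 2) / 2) * (n : ℝ) ^ 2)) ≤
              (disorder n).real {g | freeEnergy n β g ≤ n * (p - s)}) ∧
      (∀ b q : ℝ, 0 < b → b ≤ β →
        Tendsto (fun n : ℕ => (∫ g, freeEnergy n b g ∂(disorder n)) / n) atTop (𝓝 q) →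
        ∀ ε : ℝ, 0 < ε → ∀ᶠ n : ℕ in atTop,
          Real.exp (-(((-Real.log (b / β) - (1 - (b / β) ^ 2) / 2) / 2 + ε) * (n : ℝ) ^ 2)) ≤
            (disorder n).real {g | freeEnergy n β g ≤ n * (q + ε)}) := by
  refine ⟨fun β n hβ hn => ?_, ?_⟩
  · have hn1 : 1 ≤ n := by omega
    refine ⟨fun t h0 h1 x hx => H453.Lo.sk_LB β hn1 h0 h1 hx,
      fun b hb hbβ x hx => H453.Lo.sk_LB2 hn1 hb hbβ hx, fun u hu => ?_⟩
    exact H533.gauss hn1 (fun t ht x hx => H453.Lo.sk_LB β hn1 ht.1 ht.2 hx)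
      (H533.var_pos_of hn hβ.ne' fun x => Vale.Agent.P146.Sx.integrable_exp n β x) hu
  obtain ⟨a, ha, hup3⟩ := H107.up3_const
  refine ⟨a, ha, fun β hβ => ?_⟩
  obtain ⟨ha0, hup3⟩ := hup3 β hβ
  obtain ⟨c₀, Λ, -, -, hS⟩ := Vale.Agent.Results.P146.SharpRate.result
  obtain ⟨-, p, -, -, -, -, -, hp, -⟩ := hS β hβ
  obtain ⟨⟨k', hk', h3⟩, h3'⟩ := hup3 p hp
  obtain ⟨c, k, hc, hk, hup⟩ := H533.upper hβ hp
    (fun n hn t ht x hx => H453.Lo.sk_LB β hn ht.1 ht.2 hx)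
  have hL : Real.log 2 < p := H952.log_two_lt_lim hβ hp
  have hL2 : p - Real.log 2 ≤ β ^ 2 := by
    have := H453.Lo.lim_le_ann hp
    nlinarith [sq_nonneg β]
  refine ⟨ha0, p, c, min k k', hc, lt_min hk hk', hL, hp, fun n g => H952.log_two_le n β g,
    ?_, ?_, h3', H453.LowPhys.low_phys hβ hp, fun ε hε => H144.low_sharp hβ hp hε,
    fun b q hb hbβ hq ε hε => H952.low_temp (by linarith) hb hbβ hq hε⟩
  · filter_upwards [hup, eventually_ge_atTop 1] with n hn hn1 s hs hs1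
    have hs0 : 0 ≤ s := le_trans (by positivity) hs
    refine (hn s hs (hs1.trans hL2)).trans (Real.exp_le_exp.2 (neg_le_neg ?_))
    have := min_le_left k k'
    gcongr
  · intro s hs hs1
    filter_upwards [h3 s hs (hs1.trans hL2)] with n hn
    refine hn.trans (Real.exp_le_exp.2 (neg_le_neg ?_))
    have := min_le_right k k'
    gcongr

end Vale.Agent.Results.P146.LowerTail
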