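import Vale.Agent.P146.Bd3.B6
import Vale.Agent.P146.Bd4.B5
import Vale.Agent.P146.H605.Defs
import Vale.Agent.P146.H605.Fs
import Vale.Agent.P146.R3.H453.Upper
import Vale.Agent.P146.R3.H924.Low9

/-!
# P146: the variance and the finite-size correction of the free energy of the
Sherrington-Kirkpatrick model at every `β > 1`: explicit exponents on both sides
-/

open MeasureTheory ProbabilityTheory Filter Topology

namespace Vale.Agent.Results.P146.VarianceBound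

open Vale.Agent.P146 Vale.Agent.P146.H605

theorem result : ∃ Λ : ℝ → ℝ, Tendsto Λ (𝓝[>] 1) (𝓝 (9 / 5120)) ∧
    ∀ β : ℝ, 1 < β → 0 < Λ β ∧ ∃ p k D : ℝ, 0 < k ∧
    Tendsto (fun n : ℕ => (∫ g, freeEnergy n β g ∂(disorder n)) / n) atTop (𝓝 p) ∧
    -- the sharp moment law and the sharp upper tail
    (∀ ε : ℝ, 0 < ε → ∀ a : ℝ, a < 1 / 26 → ∃ δ : ℝ, 0 < δ ∧ ∀ᶠ n : ℕ in atTop,
      (∀ x : ℝ, (n : ℝ) ^ (-a) ≤ x → x ≤ δ →
        |Real.log (∫ g, Real.exp (x * (freeEnergy n β g - n * p)) ∂(disorder n)) -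
          Λ β * n * x ^ 6| ≤ ε * n * x ^ 6) ∧
      (∀ s : ℝ, (n : ℝ) ^ (-(5 * a)) ≤ s → s ≤ δ →
        |Real.log ((disorder n).real {g | n * (p + s) ≤ freeEnergy n β g}) +
          5 / 6 * (6 * Λ β) ^ (-(1 / 5) : ℝ) * n * s ^ (6 / 5 : ℝ)| ≤
            ε * n * s ^ (6 / 5 : ℝ))) ∧
    -- upper bounds
    (∀ n : ℕ, 1 ≤ n →
      0 ≤ n * p - ∫ g, freeEnergy n β g ∂(disorder n) ∧
      n * p - ∫ g, freeEnergy n β g ∂(disorder n) ≤
        D * (n : ℝ) ^ (21 / 26 : ℝ) * (1 + Real.log n) ^ 2 ∧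
      Var[freeEnergy n β; disorder n] ≤ D * (n : ℝ) ^ (11 / 13 : ℝ) * (1 + Real.log n) ^ 3 ∧
      (∀ t : ℝ, 0 ≤ t →
        (disorder n).real {g | t * ((n : ℝ) ^ (11 / 26 : ℝ) * (1 + Real.log n) ^ (3 / 2 : ℝ)) ≤
          |freeEnergy n β g - ∫ g, freeEnergy n β g ∂(disorder n)|} ≤ D * Real.exp (-(k * t))) ∧
      (∀ t : ℝ, 0 ≤ t →
        (disorder n).real {g | freeEnergy n β g ≤ ∫ g, freeEnergy n β g ∂(disorder n) - t} ≤
          Real.exp (-(k * t ^ 2 / ((n : ℝ) ^ (12 / 13 : ℝ) * (1 + Real.log n) ^ (3 / 2 : ℝ))))) ∧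
      (∀ t : ℝ, 0 ≤ t → t < 1 →
        (1 - t) * (β ^ 2 / 2 * (n * crossOverlap n β t - 1)) ≤ D * (n : ℝ) ^ (1 / 5 : ℝ) *
          (1 + (n * p - ∫ g, freeEnergy n β g ∂(disorder n))) ^ (4 / 5 : ℝ) ∧
        crossOverlap n β t ≤ D * (n : ℝ) ^ (-(2 / 13) : ℝ) * (1 + Real.log n) ^ 2 / (1 - t)) ∧
      (∀ t : ℝ, 0 ≤ t → t ≤ 1 →
        (1 - 1 / β) ^ 2 - D * (n : ℝ) ^ (-(5 / 52) : ℝ) * (1 + Real.log n) -
          (1 - t) * (β ^ 2 * n / 2) ≤ crossOverlap n β t) ∧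
      -- the mean through one small exponential moment, and the rate at every exponent
      (∀ r : ℝ, 0 < r → r ≤ 1 / (16 * (1 + Real.log n)) →
        n * p - ∫ g, freeEnergy n β g ∂(disorder n) ≤
          2 * (n * p - 1 / r * Real.log (∫ g, Real.exp (r * freeEnergy n β g) ∂(disorder n))) +
            D * n * r ^ 5 * (1 + Real.log n) ^ 5 + D) ∧
      (∀ r : ℝ, 0 < r → r ≤ 1 → 1 ≤ r ^ 6 * n →
        n * p - 1 / r * Real.log (∫ g, Real.exp (r * freeEnergy n β g) ∂(disorder n)) ≤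
          D * (1 + Real.log n) * ((n : ℝ) ^ (4 / 5 : ℝ) * r ^ (-(1 / 5) : ℝ)))) ∧
    -- the variance against the finite-size correction of the mean
    (∀ n : ℕ, 1 ≤ n → Var[freeEnergy n β; disorder n] ≤
      D * (1 + Real.log n) * ((n : ℝ) ^ (1 / 5 : ℝ) *
        (1 + (n * p - ∫ g, freeEnergy n β g ∂(disorder n))) ^ (4 / 5 : ℝ))) ∧
    -- lower bounds
    (∀ n : ℕ, 1 ≤ n → ∀ m : ℝ, (n : ℝ) ^ (3 / 4 : ℝ) ≤ m →
      n * p - ∫ g, freeEnergy n β g ∂(disorder n) ≤ m → ∀ y u : ℝ, 0 < u →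
      (disorder n).real {g | |freeEnergy n β g - y| ≤ u} ≤
        D * (u + 1) * (m / n) ^ (1 / 9 : ℝ)) ∧
    (∀ᶠ n : ℕ in atTop, ∀ m : ℝ, (n : ℝ) ^ (3 / 4 : ℝ) ≤ m →
      n * p - ∫ g, freeEnergy n β g ∂(disorder n) ≤ m →
      k * (n / m) ^ (2 / 9 : ℝ) ≤ Var[freeEnergy n β; disorder n]) ∧
    (∀ γ : ℝ, γ < 5 / 117 → ∀ᶠ n : ℕ in atTop,
      (n : ℝ) ^ γ ≤ Var[freeEnergy n β; disorder n] ∧
      ∃ t : ℝ, 0 ≤ t ∧ t < 1 ∧ (n : ℝ) ^ γ ≤ n * (1 - t) * crossOverlap n β t) ∧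
    (∀ κ : ℝ, 0 < κ → κ < 5 / 468 → ∀ᶠ n : ℕ in atTop, ∀ y : ℝ,
      (disorder n).real {g | |freeEnergy n β g - y| ≤ (n : ℝ) ^ κ} ≤ (n : ℝ) ^ (-κ)) := by
  obtain ⟨Λ, hΛ, hΛβ⟩ := Sh.lim_Lam
  refine ⟨Λ, hΛ, fun β hβ => ?_⟩
  obtain ⟨hΛ0, hlimΛ⟩ := hΛβ β hβ
  obtain ⟨-, -, -, -, -, -, -, -, -, -, hlim, -⟩ := Ld.two_sided hβ (Lb.l1 hβ)
  obtain ⟨k₁, D₁, hk₁, hD₁, hU⟩ := Tb.upper_all hβ
  obtain ⟨c, D₂, hc, hD₂, hL1, hL2⟩ := Vale.Agent.P146.R3.H924.Low9.low9 hβ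
  obtain ⟨A, -, hA⟩ := Tb.mr hβ.le
  have hexp := fun {γ κ : ℝ} (hγ : γ < 5 / 117) (hκ0 : 0 < κ) (hκ : κ < 5 / 468) =>
    Vale.Agent.P146.R3.H924.Low9.explicit9 hβ (μ := 21 / 26) (A := A) (k := 2) (γ := γ) (κ := κ)
      (by norm_num) (fun n hn => by linarith [hA n hn]) (by linarith) hκ0 (by linarith)
  have hvar : ∀ γ : ℝ, γ < 5 / 117 → ∀ᶠ n : ℕ in atTop,
      (n : ℝ) ^ γ ≤ Var[freeEnergy n β; disorder n] := fun γ hγ =>
    (hexp (κ := 1 / 157) hγ (by norm_num) (by norm_num)).mono fun n hn => hn.1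
  obtain ⟨D, hD⟩ : ∃ D, D = D₁ + D₂ + β ^ 2 / 2 := ⟨_, rfl⟩
  have hb : 0 ≤ β ^ 2 := sq_nonneg β
  have hDD₁ : D₁ ≤ D := by linarith
  have hDD₂ : D₂ ≤ D := by linarith
  refine ⟨hΛ0, Sx.pv β, min k₁ c, D, lt_min hk₁ hc, hlim, fun ε hε a ha => ?_,
    hU.mono (min_le_left _ _) (by linarith) hDD₁, fun n hn => ?_,
    fun n hn m hm hM y u hu => ?_, ?_, fun γ hγ => ?_, fun κ hκ0 hκ => ?_⟩
  · obtain ⟨x₁, hx₁, N₁, h1⟩ := Tb.sharp_moment hβ hΛ0 hlimΛ ha hε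
    obtain ⟨s₁, hs₁, N₂, h2⟩ := Tb.sharp_ldp hβ hΛ0 hlimΛ (b := 5 * a) (by linarith) ε hε
    refine ⟨min x₁ s₁, lt_min hx₁ hs₁, ?_⟩
    filter_upwards [eventually_ge_atTop (max N₁ N₂)] with n hn
    refine ⟨fun x hx hxx => ?_, fun s hs hss => h2 n ((le_max_right _ _).trans hn) s hs
      (hss.trans (min_le_right _ _))⟩
    have h3 := h1 n ((le_max_left _ _).trans hn) x hx (hxx.trans (min_le_left _ _))
    have hint := Sx.integrable_exp n β x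
    have hpos : 0 < ∫ g, Real.exp (x * freeEnergy n β g) ∂(disorder n) :=
      mgf_pos (μ := disorder n) (X := freeEnergy n β) hint
    have hcen : ∫ g, Real.exp (x * (freeEnergy n β g - n * Sx.pv β)) ∂(disorder n) =
        Real.exp (-(x * (n * Sx.pv β))) * ∫ g, Real.exp (x * freeEnergy n β g) ∂(disorder n) := by
      rw [← integral_const_mul]
      congr 1
      funext g
      rw [← Real.exp_add]
      congr 1
      ring
    rw [hcen, Real.log_mul (Real.exp_pos _).ne' hpos.ne', Real.log_exp]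
    have e : -(x * (n * Sx.pv β)) + Real.log (∫ g, Real.exp (x * freeEnergy n β g) ∂(disorder n)) =
        Real.log (∫ g, Real.exp (x * freeEnergy n β g) ∂(disorder n)) - x * (n * Sx.pv β) := by
      ring
    rw [e]
    exact h3
  · have hn1 : (1 : ℝ) ≤ n := by exact_mod_cast hn
    have hl0 : 0 ≤ Real.log n := Real.log_nonneg hn1
    obtain ⟨h1, -, -, -, -, h6, -⟩ := hU n hn
    obtain ⟨X, hX⟩ : ∃ X, X = (n : ℝ) ^ (1 / 5 : ℝ) *
        (1 + (n * Sx.pv β - ∫ g, freeEnergy n β g ∂(disorder n))) ^ (4 / 5 : ℝ) := ⟨_, rfl⟩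
    have hX1 : 1 ≤ X := by
      rw [hX]
      exact one_le_mul_of_one_le_of_one_le (Real.one_le_rpow hn1 (by norm_num))
        (Real.one_le_rpow (by linarith) (by norm_num))
    have h2 := var_le_of_prof n β hn (A := D₁ * X) (fun t ht ht1 => by
      refine (h6 t ht ht1).1.trans (le_of_eq ?_)
      rw [hX, mul_assoc])
    rw [← hX]
    refine h2.trans ?_
    have h3 : D₁ * X * Real.log n ≤ D * X * Real.log n := by gcongr
    have h4 : β ^ 2 / 2 ≤ D * X := by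
      have h5 : D * 1 ≤ D * X := by
        have : 0 ≤ D := by linarith
        gcongr
      linarith
    nlinarith
  · refine (hL1 n hn m hm hM y u hu).trans ?_
    have h1 : (0 : ℝ) ≤ m := (by positivity : (0 : ℝ) ≤ (n : ℝ) ^ (3 / 4 : ℝ)).trans hm
    have h3 : 0 ≤ (m / n) ^ (1 / 9 : ℝ) := by positivity
    exact mul_le_mul_of_nonneg_right (mul_le_mul_of_nonneg_right hDD₂ (by linarith)) h3
  · filter_upwards [hL2] with n hn m hm hM
    refine le_trans ?_ (hn m hm hM)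
    have h1 : (0 : ℝ) ≤ m := (by positivity : (0 : ℝ) ≤ (n : ℝ) ^ (3 / 4 : ℝ)).trans hm
    exact mul_le_mul_of_nonneg_right (min_le_right _ _) (by positivity)
  · filter_upwards [hvar γ hγ, Tb.prof_grow (by norm_num) hvar γ hγ] with n h1 h2
    exact ⟨h1, h2⟩
  · exact (hexp (γ := 0) (by norm_num) hκ0 hκ).mono fun n hn => hn.2

end Vale.Agent.Results.P146.VarianceBound
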